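import Crest.Agent.H4.RI.Pv

/-! The task `T_fam`. -/

set_option autoImplicit false

noncomputable section

namespace Crest.Agent.H4.RI

open MeasureTheory Set Filter Crest.AnalysisR.RotationRep Crest.Agent.H2.RP Crest.Agent.H4.VD
open Crest.Agent.H9.RI
open scoped InnerProductSpace Classical ComplexOrder

theorem t_fam : T_fam := by
  intro hker hgain hcake hlip hmono hhyp θ U V T f p hI
  have hT := hI.set
  let Q : (Cir → ℝ) → Op := fun v => if ∃ R, RB v R then pv θ v p else p
  have hQ : ∀ {v R}, RB v R → Q v = pv θ v p := fun {v R} hv => if_pos ⟨R, hv⟩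
  have QP : ∀ v, Q v ∈ T.M ∧ IsStarProjection (Q v) := fun v => by
    by_cases h : ∃ R, RB v R
    · obtain ⟨R, hv⟩ := h
      rw [hQ hv]; exact ⟨pv_mem hT hv hI.mem, pv_proj⟩
    · have : Q v = p := if_neg h
      rw [this]; exact ⟨hI.mem, hI.proj⟩
  choose ρ ν hk using fun v => hker θ U V T (Q v) hT (QP v).1 (QP v).2
  have hk' : ∀ {v R}, RB v R → IsKer θ T (pv θ v p) (ρ v) (ν v) := fun {v R} hv => by
    rw [← hQ hv]; exact hk v
  have hk0 : IsKer θ T p (ρ 0) (ν 0) := by
    have := hk' RB_zero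
    rwa [pv_zero hI.proj] at this
  have mean : ∀ v R, RB v R → ∫ x, ρ v x ∂mu = T.t p := fun v R hv => by
    rw [ker_mean (hk' hv), t_pv hT hv hI.proj hI.mem]
  refine ⟨{ ρ := ρ, ν := ν, mρ := fun v => (hk v).mρ, r01 := fun v => (hk v).r01,
            fin := fun v => (hk v).fin, mean := mean, left := ?_, right := ?_,
            zero := fun v _ _ => (hk v).zero, bonus := ?_, lip := ?_, mono := ?_, hyp := ?_ }⟩
  · intro v R _ S hS
    rw [(hk v).rect _ _ hS MeasurableSet.univ, iS_univ, one_mul, ← ker_iS (hk v) hS,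
      VT.t_comm (VT.mul_mem (QP v).1 (iS_mem hT hS)) (QP v).1, ← mul_assoc,
      (QP v).2.isIdempotentElem.eq]
  · intro v R _ S hS
    rw [(hk v).rect _ _ MeasurableSet.univ hS, iS_univ, mul_one, ← ker_iS (hk v) hS, mul_assoc,
      (QP v).2.isIdempotentElem.eq, VT.t_comm (iS_mem hT hS) (QP v).1]
  · intro u v R R' hu hv
    have hd := RB_sub hv hu
    haveI := (hk u).fin
    refine hcake θ (ρ u) (ρ v) (fun x => v x - u x) _ (ν u) (RB_01 (hk u).mρ (hk u).r01)
      (RB_01 (hk v).mρ (hk v).r01) hd (by rw [mean u _ hu, mean v _ hv]) ?_ fun a => ?_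
    · intro S S' hS hS'
      rw [(hk u).rect _ _ hS hS', (hk u).rect _ _ hS' hS, mul_assoc, mul_assoc (iS θ S * Q u),
        VT.t_comm (VT.mul_mem (iS_mem hT hS') (QP u).1) (VT.mul_mem (iS_mem hT hS) (QP u).1)]
    · have m1 : MeasurableSet {x | a < v x - u x} := measurableSet_lt measurable_const hd.1
      have m2 : MeasurableSet {x | a + 1 < v x - u x} := measurableSet_lt measurable_const hd.1
      have := hgain θ U V T (pv θ u p) (fun x => v x - u x) _ a hT (pv_mem hT hu hI.mem) pv_proj hd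
      rw [pv_sub hu hv, ker_iS (hk' hu) m1, ker_iS (hk' hv) m1,
        ← (hk' hu).rect _ _ m1.compl m2] at this
      exact this
  · intro u v R hu hv
    have := hlip θ U V T (pv θ u p) (fun x => v x - u x) (R + R) (ρ u) (ρ v) (ν u) (ν v) hT
      (pv_mem hT hu hI.mem) pv_proj (RB_sub hv hu) (hk' hu) (by rw [pv_sub hu hv]; exact hk' hv)
    rwa [show 4 * (R + R) = 8 * R by ring] at this
  · intro v R κ Z S hv hZ hS h1 h2
    exact hmono θ U V T f p v R κ Z S _ _ hI hv (hk' hv) hZ hS h1 h2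
  · intro v R n S Z B C A β hv hS hZ b0 c0 β0 β1 hA h1 h2 h3
    exact hhyp θ U V T f p v R n S Z B C A β _ _ _ _ hI hv hk0 (hk' hv) hS hZ b0 c0 β0 β1 hA h1 h2 h3

end Crest.Agent.H4.RI
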