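import Crest.Agent.H4.RI.Pv

/-! The tasks `T_lip` and `T_mono`. -/

set_option autoImplicit false

noncomputable section

namespace Crest.Agent.H4.RI

open MeasureTheory Set Filter Crest.AnalysisR.RotationRep Crest.Agent.H2.RP Crest.Agent.H4.VD
open Crest.Agent.H9.RI
open scoped InnerProductSpace Classical ComplexOrder

lemma n2_pr {θ : ℝ} {U V : Op} {T : VT HH} (hT : Setup θ U V T) {h : Cir → ℝ} {R : ℝ}
    (hh : RB h R) : T.n2 (pr' θ h) ^ 2 = ∫ x, h x ^ 2 ∂mu := by
  rw [VT.n2_sq, pr_star hh, ← pr_mul hh hh, t_pr hT (RB_mul hh hh)]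
  simp only [sq]

lemma abs_one_sub_exp {s R : ℝ} (hs : |s| ≤ R) : |1 - Real.exp s| ≤ Real.exp R * |s| := by
  have h1 := Real.add_one_le_exp s
  have h2 := Real.add_one_le_exp (-s)
  have h3 : Real.exp s * Real.exp (-s) = 1 := by rw [← Real.exp_add]; simp
  have h4 : Real.exp s ≤ Real.exp R := Real.exp_le_exp.2 (abs_le.1 hs).2
  have h5 : 1 ≤ Real.exp R := Real.one_le_exp ((abs_nonneg _).trans hs)
  have h6 := Real.exp_pos s
  rcases le_total 0 s with h | h
  · rw [abs_of_nonneg h, abs_of_nonpos (by linarith)]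
    nlinarith
  · rw [abs_of_nonpos h, abs_of_nonneg (by linarith [Real.exp_le_one_iff.2 h])]
    nlinarith

theorem t_lip : T_lip := by
  intro θ U V T q d R ρ ρ' ν ν' hT qM hq hd hk hk'
  have r1 := RB_01 hk.mρ hk.r01
  have r2 := RB_01 hk'.mρ hk'.r01
  have hh := RB_sub r2 r1
  set h : Cir → ℝ := fun x => ρ' x - ρ x with hdef
  have e1 : T.t (star (pv θ d q - q) * pr' θ h) = ∫ x, h x ^ 2 ∂mu := by
    rw [star_sub, hq.isSelfAdjoint.star_eq, pv_proj.isSelfAdjoint.star_eq, sub_mul, VT.t_sub,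
      hk.diag _ _ hh, hk'.diag _ _ hh,
      ← integral_sub (RB_int (RB_mul r2 hh)) (RB_int (RB_mul r1 hh))]
    congr 1; funext x; simp only [hdef]; ring
  have e2 := (abs_le.1 (T.abs_t_le (pv θ d q - q) (pr' θ h))).2
  have e3 := n2_pr hT hh
  have e4 := VT.step_lip hq pv_proj qM (pv_mem hT hd qM) (pr_mem hT (RB_exp hd))
    (t_pv hT hd hq qM).symm pv_mul
  have hg := RB_sub (RB_const 1) (RB_exp hd)
  have e5 : T.n2 (1 - pr' θ fun x => Real.exp (d x)) ^ 2
      ≤ Real.exp (4 * R) * ∫ x, d x ^ 2 ∂mu := by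
    rw [← pr_one (θ := θ), ← pr_sub (RB_const 1) (RB_exp hd), n2_pr hT hg, ← integral_const_mul]
    refine integral_mono (by simpa only [sq] using RB_int (RB_mul hg hg))
      (Integrable.const_mul (by simpa only [sq] using RB_int (RB_mul hd hd)) _) fun x => ?_
    have a1 := abs_one_sub_exp (hd.2 x)
    have a2 : Real.exp R ^ 2 ≤ Real.exp (4 * R) := by
      rw [← Real.exp_nat_mul]; exact Real.exp_le_exp.2 (by push_cast; linarith [RB_nonneg hd])
    calc (1 - Real.exp (d x)) ^ 2 = |1 - Real.exp (d x)| ^ 2 := (sq_abs _).symm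
      _ ≤ (Real.exp R * |d x|) ^ 2 := by gcongr
      _ = Real.exp R ^ 2 * d x ^ 2 := by rw [mul_pow, sq_abs]
      _ ≤ _ := by gcongr
  have a := T.n2_nonneg (pr' θ h)
  have b := T.n2_nonneg (pv θ d q - q)
  have e6 : T.n2 (pv θ d q - q) ^ 2 ≤ 2 * T.n2 (1 - pr' θ fun x => Real.exp (d x)) ^ 2 := by
    calc _ ≤ (√2 * T.n2 (1 - pr' θ fun x => Real.exp (d x))) ^ 2 := by gcongr
      _ = _ := by rw [mul_pow, Real.sq_sqrt zero_le_two]
  rw [e1, ← e3] at e2
  show ∫ x, h x ^ 2 ∂mu ≤ _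
  rw [← e3]
  nlinarith [sq_nonneg (T.n2 (pr' θ h) - T.n2 (pv θ d q - q))]

lemma t_mul_proj_mono {T : VT HH} {a b S : Op} (h : a ≤ b) (ha : a ∈ T.M) (hb : b ∈ T.M)
    (hS : IsStarProjection S) (SM : S ∈ T.M) : T.t (a * S) ≤ T.t (b * S) := by
  have := VT.t_mul_nonneg (sub_nonneg.2 h) (VT.sub_mem hb ha) SM
  rw [VT.proj_eq hS, sub_mul, VT.t_sub] at this
  linarith

theorem t_mono : T_mono := by
  intro θ U V T f p v R κ Z S ρ ν hI hv hk hZ hS h1 h2
  have hT := hI.set
  have hUV := hT.hUV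
  have hf := RB_01 hI.mf hI.f01
  set q := pv θ v p with hq
  have qP : IsStarProjection q := pv_proj
  have qM : q ∈ T.M := pv_mem hT hv hI.mem
  set g : Cir → ℝ := fun x => f x * Real.exp (v (mv θ x 1) - v x + κ) with hg
  have gB := RB_mul hf (RB_exp (RB_add (RB_sub (RB_mv (θ := θ) hv 1) hv) (RB_const κ)))
  set g' : Cir → ℝ := fun x => g x * Zᶜ.indicator (fun _ => (1 : ℝ)) x with hg'
  have g'B : RB g' 1 := ⟨(RB_mul gB (RB_ind hZ.compl)).1, fun x => by
    by_cases hx : x ∈ Z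
    · simp [hg', hx]
    · have : 0 ≤ g x := mul_nonneg (hI.f01 x).1 (Real.exp_pos _).le
      simpa [hg', hx, abs_of_nonneg this] using h1 x hx⟩
  -- `q` is invariant under `U g`
  have inv : (1 - q) * (U * pr' θ g) * q = 0 := by
    refine mul_rp_zero ?_
    have e1 : pr' θ g * pr' θ (fun x => Real.exp (v x)) = (Real.exp κ : ℂ) •
        (pr' θ (fun x => Real.exp (v (mv θ x 1))) * pr' θ f) := by
      rw [← pr_mul gB (RB_exp hv), ← pr_mul (RB_exp (RB_mv hv 1)) hf, ← smul_one_mul,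
        ← pr_const, ← pr_mul (RB_const _) (RB_mul (RB_exp (RB_mv hv 1)) hf)]
      congr 1; funext x
      simp only [Real.exp_add, Real.exp_sub]; field_simp
    have e2 : U * pr' θ f * p = p * (U * pr' θ f * p) := by
      have := hI.inv
      rw [mul_assoc, sub_mul, one_mul, sub_eq_zero] at this; exact this
    have e3 : (1 - q) * (pr' θ (fun x => Real.exp (v x)) * p) = 0 := by
      rw [sub_mul, one_mul, hq, pv_mul, sub_self]
    calc (1 - q) * (U * pr' θ g) * (pr' θ (fun x => Real.exp (v x)) * p)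
        = (1 - q) * U * (pr' θ g * pr' θ (fun x => Real.exp (v x))) * p := by
          simp only [mul_assoc]
      _ = (Real.exp κ : ℂ) • ((1 - q) * (U * pr' θ (fun x => Real.exp (v (mv θ x 1))))
            * pr' θ f * p) := by
          rw [e1]; simp only [mul_smul_comm, smul_mul_assoc, mul_assoc]
      _ = (Real.exp κ : ℂ) • ((1 - q) * pr' θ (fun x => Real.exp (v x)) * (U * pr' θ f * p)) := by
          rw [← pr_mul_U hUV (RB_exp hv)]; simp only [mul_assoc]
      _ = 0 := by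
          rw [e2, ← mul_assoc, mul_assoc (1 - q), e3, zero_mul, smul_zero]
  set z := iS θ Zᶜ with hz
  have zP : IsStarProjection z := iS_proj hZ.compl
  have zM : z ∈ T.M := iS_mem hT hZ.compl
  set r := pinf q z with hr
  have rP : IsStarProjection r := pinf_proj _ _
  have rM : r ∈ T.M := VT.pinf_mem qM zM
  have qr : q * r = r := mul_pinf_left qP z
  have zr : z * r = r := mul_pinf_right q zP
  have tr : T.t q - mu.real Z ≤ T.t r := by
    have := VT.t_pinf_ge qP zP qM zM
    rw [hz, iS_compl hZ, VT.t_sub, VT.t_one, t_iS hT hZ, ← iS_compl hZ] at this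
    linarith
  set J := U * pr' θ g' with hJ
  have UM := U_mem hT
  have JM : J ∈ T.M := VT.mul_mem UM (pr_mem hT g'B)
  have Jr : J * r = U * pr' θ g * r := by
    rw [hJ, hg', pr_mul gB (RB_ind hZ.compl), ← iS_eq, ← hz, mul_assoc, mul_assoc, zr, mul_assoc]
  have qJ : q * (J * r) = J * r := by
    have : (1 - q) * (U * pr' θ g) * q * r = 0 := by rw [inv, zero_mul]
    rw [mul_assoc, qr, mul_assoc, sub_mul, one_mul, sub_eq_zero, ← Jr] at this
    exact this.symm
  have nU : ‖U‖ ≤ 1 := by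
    have a := CStarRing.norm_star_mul_self (x := U)
    rw [star_U_mul hUV] at a
    have b : ‖(1 : Op)‖ ≤ 1 := ContinuousLinearMap.norm_id_le
    nlinarith [norm_nonneg U]
  have nJ : ‖J * r‖ ≤ 1 := by
    calc ‖J * r‖ ≤ ‖U‖ * ‖pr' θ g'‖ * ‖r‖ :=
          (norm_mul_le _ _).trans (by gcongr; exact norm_mul_le _ _)
      _ ≤ 1 * 1 * 1 := by
          gcongr
          exacts [pr_norm g'B, rP.norm_le _]
      _ = 1 := by ring
  have le1 : (J * r) * star (J * r) ≤ q := by
    have a := CStarAlgebra.star_right_conjugate_le_norm_smul (a := q)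
      (b := (J * r) * star (J * r)) (IsSelfAdjoint.mul_star_self _)
    have b : q * ((J * r) * star (J * r)) * star q = (J * r) * star (J * r) := by
      rw [← mul_assoc q, qJ, mul_assoc, ← star_mul, qJ]
    rw [b, qP.isSelfAdjoint.star_eq, qP.isIdempotentElem.eq,
      CStarRing.norm_self_mul_star (x := J * r)] at a
    refine a.trans ?_
    have c := smul_nonneg (show (0 : ℂ) ≤ ((1 - ‖J * r‖ * ‖J * r‖ : ℝ) : ℂ) from
      Complex.zero_le_real.2 (by nlinarith [norm_nonneg (J * r)])) qP.nonneg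
    rw [Complex.ofReal_sub, sub_smul, Complex.ofReal_one, one_smul] at c
    exact sub_nonneg.1 c
  -- the shifted set
  set S' : Set Cir := (fun x => mv θ x (-1)) ⁻¹' S with hS'
  have mS' : MeasurableSet S' := (measurable_add_const _) hS
  have mvmv : ∀ x, mv θ (mv θ x 1) (-1) = x := fun x => by
    rw [mv, mv, add_assoc, ← AddCircle.coe_add]; simp
  have sh : iS θ S' * U = U * iS θ S := by
    rw [iS_eq, pr_mul_U hUV (RB_ind mS'), iS_eq]
    congr 2; funext x
    by_cases hx : x ∈ S <;> simp [indicator, hS', mvmv, hx]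
  have k1 := t_mul_proj_mono le1 (VT.mul_mem (VT.mul_mem JM rM) (VT.star_mem' (VT.mul_mem JM rM)))
    qM (iS_proj mS') (iS_mem hT mS')
  have k2 : star J * iS θ S' * J = iS θ S := by
    have e : pr' θ g' * iS θ S = iS θ S := by
      rw [iS_eq, ← pr_mul g'B (RB_ind hS)]
      congr 1; funext x
      by_cases hx : x ∈ S
      · simp [hg', hx, (h2 x hx).1, hg, (h2 x hx).2]
      · simp [hx]
    have e' : iS θ S * pr' θ g' = iS θ S := by
      rw [iS_eq, pr_comm (RB_ind hS) g'B, ← iS_eq, e]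
    rw [hJ, star_mul, pr_star g'B, mul_assoc, mul_assoc, ← mul_assoc (iS θ S'), sh,
      ← mul_assoc (star U), ← mul_assoc (star U), star_U_mul hUV, one_mul, e', e]
  have k3 : T.t (J * r * star (J * r) * iS θ S') = T.t (r * iS θ S) := by
    have := VT.t_comm JM (VT.mul_mem (VT.mul_mem rM (VT.star_mem' (VT.mul_mem JM rM)))
      (iS_mem hT mS'))
    rw [← k2]
    rw [star_mul, rP.isSelfAdjoint.star_eq] at this ⊢
    simp only [mul_assoc] at this ⊢
    rw [this, ← mul_assoc r r, rP.isIdempotentElem.eq]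
  have k4 : T.t (q * iS θ S) - T.t (r * iS θ S) ≤ T.t q - T.t r := by
    have dP := proj_sub rP qP qr
    have dM := VT.sub_mem qM rM
    have := VT.t_mul_nonneg dP.nonneg dM (VT.sub_mem VT.one_mem (iS_mem hT hS))
    rw [VT.proj_eq (iS_proj hS).one_sub, mul_sub, mul_one, sub_mul, VT.t_sub, VT.t_sub,
      VT.t_sub] at this
    linarith
  have k5 : T.t (q * iS θ S') = ∫ x in S, ρ (mv θ x 1) ∂mu := by
    rw [ker_iS hk mS', ← integral_indicator mS', ← integral_indicator hS,
      ← integral_add_right_eq_self _ (((1 : ℤ) * θ : ℝ) : Cir)]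
    congr 1; funext x
    have e : mv θ x 1 ∈ S' ↔ x ∈ S := by rw [hS', mem_preimage, mvmv]
    show S'.indicator ρ (mv θ x 1) = _
    by_cases hx : x ∈ S
    · rw [indicator_of_mem hx, indicator_of_mem (e.2 hx)]
    · rw [indicator_of_notMem hx, indicator_of_notMem (fun h => hx (e.1 h))]
  rw [← k5, ← ker_iS hk hS]
  linarith

end Crest.Agent.H4.RI
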