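import Crest.Agent.H9.RI.Defs
import Crest.Agent.H4.VD.Mono

/-! Basic facts on real multipliers and tilted projections. -/

set_option autoImplicit false

noncomputable section

namespace Crest.Agent.H4.RI

open MeasureTheory Set Filter Crest.AnalysisR.RotationRep Crest.Agent.H2.RP Crest.Agent.H4.VD
open Crest.Agent.H9.RI
open scoped InnerProductSpace Classical

variable {θ : ℝ} {U V : Op} {T : VT HH} {u v h k : Cir → ℝ} {R R' : ℝ} {p q : Op}

lemma RB_bm (hv : RB v R) : BM fun x => (v x : ℂ) :=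
  ⟨Complex.measurable_ofReal.comp hv.1, R, fun x => by simpa using hv.2 x⟩

lemma RB_nonneg (hv : RB v R) : 0 ≤ R := (abs_nonneg _).trans (hv.2 0)
lemma RB_mono (hv : RB v R) (h : R ≤ R') : RB v R' := ⟨hv.1, fun x => (hv.2 x).trans h⟩
lemma RB_const (c : ℝ) : RB (fun _ => c) |c| := ⟨measurable_const, fun _ => le_rfl⟩
lemma RB_zero : RB 0 0 := ⟨measurable_const, fun _ => by simp⟩
lemma RB_neg (hv : RB v R) : RB (fun x => -v x) R := ⟨hv.1.neg, fun x => by simpa using hv.2 x⟩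
lemma RB_add (hu : RB u R) (hv : RB v R') : RB (fun x => u x + v x) (R + R') :=
  ⟨hu.1.add hv.1, fun x => (abs_add_le _ _).trans (add_le_add (hu.2 x) (hv.2 x))⟩
lemma RB_sub (hu : RB u R) (hv : RB v R') : RB (fun x => u x - v x) (R + R') :=
  ⟨hu.1.sub hv.1, fun x => (abs_sub _ _).trans (add_le_add (hu.2 x) (hv.2 x))⟩
lemma RB_mul (hu : RB u R) (hv : RB v R') : RB (fun x => u x * v x) (R * R') :=
  ⟨hu.1.mul hv.1, fun x => by
    rw [abs_mul]; exact mul_le_mul (hu.2 x) (hv.2 x) (abs_nonneg _) (RB_nonneg hu)⟩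
lemma RB_exp (hv : RB v R) : RB (fun x => Real.exp (v x)) (Real.exp R) :=
  ⟨hv.1.exp, fun x => by
    rw [abs_of_pos (Real.exp_pos _)]; exact Real.exp_le_exp.2 (abs_le.1 (hv.2 x)).2⟩
lemma RB_mv (hv : RB v R) (n : ℤ) : RB (fun x => v (mv θ x n)) R :=
  ⟨hv.1.comp (measurable_add_const _), fun _ => hv.2 _⟩
lemma RB_ind {S : Set Cir} (hS : MeasurableSet S) : RB (S.indicator fun _ => (1 : ℝ)) 1 :=
  ⟨measurable_const.indicator hS, fun x => by by_cases hx : x ∈ S <;> simp [hx]⟩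
lemma RB_01 (hm : Measurable v) (h01 : ∀ x, 0 ≤ v x ∧ v x ≤ 1) : RB v 1 :=
  ⟨hm, fun x => by rw [abs_of_nonneg (h01 x).1]; exact (h01 x).2⟩
lemma RB_int (hv : RB v R) : Integrable v mu :=
  (memLp_top_of_bound hv.1.aestronglyMeasurable R (Eventually.of_forall hv.2)).integrable le_top

lemma pr_mul (hh : RB h R) (hk : RB k R') : pr' θ (fun x => h x * k x) = pr' θ h * pr' θ k := by
  rw [pr', pr', pr', ← pi_mul (RB_bm hh) (RB_bm hk)]; simp
lemma pr_add (hh : RB h R) (hk : RB k R') : pr' θ (fun x => h x + k x) = pr' θ h + pr' θ k := by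
  rw [pr', pr', pr', ← pi_add (RB_bm hh) (RB_bm hk)]; simp
lemma pr_sub (hh : RB h R) (hk : RB k R') : pr' θ (fun x => h x - k x) = pr' θ h - pr' θ k := by
  rw [pr', pr', pr', ← pi_sub (RB_bm hh) (RB_bm hk)]; simp
lemma pr_one : pr' θ (fun _ => 1) = 1 := by rw [pr']; simpa using pi_one (θ := θ)
lemma pr_const (c : ℝ) : pr' θ (fun _ => c) = (c : ℂ) • 1 := pi_const _
lemma pr_star (hh : RB h R) : star (pr' θ h) = pr' θ h := by
  rw [pr', ← pi_star (RB_bm hh)]; simp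
lemma pr_comm (hh : RB h R) (hk : RB k R') : pr' θ h * pr' θ k = pr' θ k * pr' θ h :=
  pi_comm (RB_bm hh) (RB_bm hk)
lemma pr_norm (hh : RB h R) : ‖pr' θ h‖ ≤ R :=
  norm_pi_le (RB_bm hh) (RB_nonneg hh) (Eventually.of_forall fun x => by simpa using hh.2 x)
lemma pr_mem (hT : Setup θ U V T) (hh : RB h R) : pr' θ h ∈ T.M := hT.sub (pi_mem hT.hUV (RB_bm hh))
lemma U_mem (hT : Setup θ U V T) : U ∈ T.M :=
  hT.sub fun c hc => (hc U (Or.inl (Or.inl rfl))).symm
lemma t_pr (hT : Setup θ U V T) (hh : RB h R) : T.t (pr' θ h) = ∫ x, h x ∂mu := by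
  rw [VT.t, hT.tau, pr', tau_pi (RB_bm hh), integral_complex_ofReal]; simp
lemma iS_eq (S : Set Cir) : iS θ S = pr' θ (S.indicator fun _ => (1 : ℝ)) := by
  rw [iS, pr']; congr 1; funext x; by_cases hx : x ∈ S <;> simp [hx]
lemma iS_univ : iS θ univ = 1 := by rw [iS_eq, indicator_univ, pr_one]
lemma iS_mem (hT : Setup θ U V T) {S : Set Cir} (hS : MeasurableSet S) : iS θ S ∈ T.M := by
  rw [iS_eq]; exact pr_mem hT (RB_ind hS)
lemma iS_proj {S : Set Cir} (hS : MeasurableSet S) : IsStarProjection (iS θ S) := by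
  rw [iS_eq]
  refine ⟨?_, pr_star (RB_ind hS)⟩
  show _ * _ = _
  rw [← pr_mul (RB_ind hS) (RB_ind hS)]
  congr 1; funext x; by_cases hx : x ∈ S <;> simp [hx]
lemma iS_compl {S : Set Cir} (hS : MeasurableSet S) : iS θ Sᶜ = 1 - iS θ S := by
  rw [iS_eq, iS_eq, ← pr_one (θ := θ), ← pr_sub (RB_const 1) (RB_ind hS)]
  congr 1; funext x; by_cases hx : x ∈ S <;> simp [hx]
lemma t_iS (hT : Setup θ U V T) {S : Set Cir} (hS : MeasurableSet S) :
    T.t (iS θ S) = mu.real S := by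
  rw [iS_eq, t_pr hT (RB_ind hS), integral_indicator hS]; simp
lemma ker_iS {ρ : Cir → ℝ} {ν : Measure (Cir × ℤ)} (hk : IsKer θ T q ρ ν) {S : Set Cir}
    (hS : MeasurableSet S) : T.t (q * iS θ S) = ∫ x in S, ρ x ∂mu := by
  rw [iS_eq, hk.diag _ _ (RB_ind hS), ← integral_indicator hS]
  congr 1; funext x; by_cases hx : x ∈ S <;> simp [hx]
lemma ker_mean {ρ : Cir → ℝ} {ν : Measure (Cir × ℤ)} (hk : IsKer θ T q ρ ν) :
    ∫ x, ρ x ∂mu = T.t q := by
  have := hk.diag _ _ (RB_const 1)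
  rw [pr_one, mul_one] at this
  simpa using this.symm
lemma pr_mul_U (hUV : IsRotationPair θ U V) (hh : RB h R) :
    pr' θ h * U = U * pr' θ (fun x => h (mv θ x 1)) := by
  rw [pr', pi_mul_U hUV (RB_bm hh), pr']; simp [mv]

lemma exp_mul_exp (hu : RB u R) (hv : RB v R') :
    pr' θ (fun x => Real.exp (u x)) * pr' θ (fun x => Real.exp (v x))
      = pr' θ (fun x => Real.exp (u x + v x)) := by
  rw [← pr_mul (RB_exp hu) (RB_exp hv)]; simp only [Real.exp_add]
lemma exp_neg_mul (hv : RB v R) :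
    pr' θ (fun x => Real.exp (-v x)) * pr' θ (fun x => Real.exp (v x)) = 1 := by
  rw [exp_mul_exp (RB_neg hv) hv]; simpa using pr_one (θ := θ)

lemma rp_mul_rp (x z : Op) : rp (x * rp z) = rp (x * z) := by
  have h1 : rp (x * rp z) * rp (x * z) = rp (x * z) := mul_rp (by
    have e : x * z = x * rp z * z := by rw [mul_assoc, rp_mul]
    rw [e, ← mul_assoc, rp_mul])
  have h2 : rp (x * z) * rp (x * rp z) = rp (x * rp z) := mul_rp (by
    have : (1 - rp (x * z)) * x * rp z = 0 :=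
      mul_rp_zero (by rw [mul_assoc, sub_mul, one_mul, rp_mul, sub_self])
    rw [mul_assoc, sub_mul, one_mul, sub_eq_zero] at this
    exact this.symm)
  rw [← h2, proj_comm (rp_proj _) (rp_proj _) h1]

lemma pv_proj : IsStarProjection (pv θ v p) := rp_proj _
lemma pv_mem (hT : Setup θ U V T) (hv : RB v R) (hp : p ∈ T.M) : pv θ v p ∈ T.M :=
  VT.rp_mem (VT.mul_mem (pr_mem hT (RB_exp hv)) hp)
lemma t_pv (hT : Setup θ U V T) (hv : RB v R) (hp : IsStarProjection p) (hM : p ∈ T.M) :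
    T.t (pv θ v p) = T.t p :=
  VT.t_rp_mul (pr_mem hT (RB_exp hv)) hp hM fun w _ hw => by
    have := congrArg (fun y : Op => y w) (exp_neg_mul (θ := θ) hv)
    simp only [ContinuousLinearMap.mul_apply, hw, map_zero, ContinuousLinearMap.one_apply] at this
    exact this.symm
lemma pv_zero (hp : IsStarProjection p) : pv θ 0 p = p := by
  have : pr' θ (fun x => Real.exp ((0 : Cir → ℝ) x)) = 1 := by simpa using pr_one (θ := θ)
  rw [pv, this, one_mul, rp_of_proj hp]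
lemma pv_pv (hu : RB u R) (hv : RB v R') :
    pv θ u (pv θ v p) = pv θ (fun x => u x + v x) p := by
  rw [pv, pv, pv, rp_mul_rp, ← mul_assoc, exp_mul_exp hu hv]
lemma pv_sub (hu : RB u R) (hv : RB v R') :
    pv θ (fun x => v x - u x) (pv θ u p) = pv θ v p := by
  rw [pv_pv (RB_sub hv hu) hu]; simp
/-- `e^v` maps `p` into `[e^v p]` -/
lemma pv_mul : pv θ v p * (pr' θ (fun x => Real.exp (v x)) * p)
    = pr' θ (fun x => Real.exp (v x)) * p := rp_mul _
/-- `e^{-v}` maps `[e^v p]` into `p` -/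
lemma pv_back (hv : RB v R) (hp : IsStarProjection p) :
    (1 - p) * pr' θ (fun x => Real.exp (-v x)) * pv θ v p = 0 :=
  mul_rp_zero (by
    rw [mul_assoc, ← mul_assoc _ _ p, exp_neg_mul hv, one_mul, hp.one_sub_mul_self])

end Crest.Agent.H4.RI
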